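import Mathlib

/-!
`jstar`: the chosen-subset Berge injection (row J of helper489's proof).

For an up-set `F` of subsets of `W` and any choice `Kc A ⊆ A`, `Kc A ∈ F` for `A ∈ F`, there is
`φ A ⊆ Kc A` with `(W \ A) ∪ φ A ∈ F` and `A ↦ (W \ A) ∪ φ A` injective on `F`.
Proof: the coefficient matrix of the polynomials
`f_A = ∏_{A \ K} x_e * ∏_{K} (x_e - 1)` on the monomials of the down-set `{X | W \ X ∈ F}` is
nonsingular.
-/

namespace Vale.P331.H218

open Finset

variable {α : Type*} [DecidableEq α]

/-- the coefficient of `x^X` in `∏_{e ∈ A \ K} x_e * ∏_{e ∈ K} (x_e - 1)` -/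
noncomputable def mco (A K X : Finset α) : ℚ :=
  if A \ K ⊆ X ∧ X ⊆ A then (-1 : ℚ) ^ (A \ X).card else 0

theorem mco_self (A K : Finset α) : mco A K A = 1 := by
  simp [mco, sdiff_subset]

theorem mco_sum_eq_zero {A K Y : Finset α} (hKA : K ⊆ A) {e : α} (heK : e ∈ K) (heY : e ∈ Y) :
    ∑ X ∈ Y.powerset, mco A K X = 0 := by
  classical
  have heA : e ∈ A := hKA heK
  refine Finset.sum_involution
    (fun X _ => if e ∈ X then X.erase e else insert e X) ?_ ?_ ?_ ?_
  · intro X hX
    by_cases heX : e ∈ X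
    · simp only [heX, if_true]
      by_cases h : A \ K ⊆ X ∧ X ⊆ A
      · have h' : A \ K ⊆ X.erase e ∧ X.erase e ⊆ A := by
          refine ⟨fun a ha => ?_, fun a ha => h.2 (mem_of_mem_erase ha)⟩
          refine mem_erase.2 ⟨?_, h.1 ha⟩
          rintro rfl
          exact (mem_sdiff.1 ha).2 heK
        have hc : (A \ X.erase e).card = (A \ X).card + 1 := by
          have : A \ X.erase e = insert e (A \ X) := by
            ext a
            simp only [mem_sdiff, mem_erase, mem_insert, not_and, ne_eq]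
            constructor
            · rintro ⟨ha, hb⟩
              by_cases hae : a = e
              · exact Or.inl hae
              · exact Or.inr ⟨ha, hb hae⟩
            · rintro (rfl | ⟨ha, hb⟩)
              · exact ⟨heA, fun hh => absurd rfl hh⟩
              · exact ⟨ha, fun _ => hb⟩
          rw [this, card_insert_of_notMem (by simp [heX])]
        simp only [mco, if_pos h, if_pos h', hc, pow_succ]
        ring
      · have h' : ¬ (A \ K ⊆ X.erase e ∧ X.erase e ⊆ A) := by
          intro h'
          apply h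
          refine ⟨fun a ha => mem_of_mem_erase (h'.1 ha), fun a ha => ?_⟩
          by_cases hae : a = e
          · rw [hae]; exact heA
          · exact h'.2 (mem_erase.2 ⟨hae, ha⟩)
        rw [mco, mco, if_neg h, if_neg h', add_zero]
    · simp only [heX, if_false]
      by_cases h : A \ K ⊆ X ∧ X ⊆ A
      · have h' : A \ K ⊆ insert e X ∧ insert e X ⊆ A :=
          ⟨fun a ha => mem_insert_of_mem (h.1 ha), insert_subset heA h.2⟩
        have hc : (A \ X).card = (A \ insert e X).card + 1 := by
          have : A \ X = insert e (A \ insert e X) := by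
            ext a
            simp only [mem_sdiff, mem_insert, not_or]
            constructor
            · rintro ⟨ha, hb⟩
              by_cases hae : a = e
              · exact Or.inl hae
              · exact Or.inr ⟨ha, hae, hb⟩
            · rintro (rfl | ⟨ha, _, hb⟩)
              · exact ⟨heA, heX⟩
              · exact ⟨ha, hb⟩
          rw [this, card_insert_of_notMem (by simp)]
        simp only [mco, if_pos h, if_pos h', hc, pow_succ]
        ring
      · have h' : ¬ (A \ K ⊆ insert e X ∧ insert e X ⊆ A) := by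
          intro h'
          apply h
          refine ⟨fun a ha => ?_, fun a ha => h'.2 (mem_insert_of_mem ha)⟩
          rcases mem_insert.1 (h'.1 ha) with rfl | h1
          · exact absurd heK (mem_sdiff.1 ha).2
          · exact h1
        rw [mco, mco, if_neg h, if_neg h', add_zero]
  · intro X hX _
    by_cases heX : e ∈ X
    · simp only [heX, if_true]
      intro h
      have := Finset.notMem_erase e X
      rw [h] at this
      exact this heX
    · simp only [heX, if_false]
      intro h
      exact heX (h ▸ mem_insert_self e X)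
  · intro X hX
    rw [mem_powerset] at hX ⊢
    by_cases heX : e ∈ X
    · simp only [heX, if_true]
      exact (erase_subset _ _).trans hX
    · simp only [heX, if_false]
      exact insert_subset heY hX
  · intro X hX
    by_cases heX : e ∈ X
    · simp [heX]
    · simp [heX]

/-- the polynomials `f_A`, `A ∈ F`, are linearly independent modulo the monomials outside the
down-set `{X | F (W \ X)}`. -/
theorem coeff_eq_zero (W : Finset α) (F : Finset α → Prop)
    (hF : ∀ A B, A ⊆ B → B ⊆ W → F A → F B) (Kc : Finset α → Finset α)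
    (hK : ∀ A ⊆ W, F A → Kc A ⊆ A ∧ F (Kc A)) (S : Finset (Finset α))
    (hS : ∀ A, A ∈ S ↔ A ⊆ W ∧ F A) (c : Finset α → ℚ)
    (h0 : ∀ B ∈ S, ∑ A ∈ S, c A * mco A (Kc A) (W \ B) = 0) : ∀ A ∈ S, c A = 0 := by
  classical
  -- all coefficients vanish
  have hg : ∀ n : ℕ, ∀ X ⊆ W, X.card = n → ∑ A ∈ S, c A * mco A (Kc A) X = 0 := by
    intro n
    induction n using Nat.strong_induction_on with
    | _ n ih =>
      intro X hXW hn
      by_cases hL : F (W \ X)
      · have := h0 (W \ X) ((hS _).2 ⟨sdiff_subset, hL⟩)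
        rwa [Finset.sdiff_sdiff_eq_self hXW] at this
      · have hsum : ∑ X' ∈ X.powerset, ∑ A ∈ S, c A * mco A (Kc A) X' = 0 := by
          rw [sum_comm]
          refine sum_eq_zero fun A hA => ?_
          rw [← mul_sum]
          obtain ⟨hAW, hFA⟩ := (hS A).1 hA
          obtain ⟨hKA, hFK⟩ := hK A hAW hFA
          have : ∃ e ∈ Kc A, e ∈ X := by
            by_contra hcon
            push Not at hcon
            apply hL
            refine hF (Kc A) (W \ X) (fun a ha => ?_) sdiff_subset hFK
            exact mem_sdiff.2 ⟨hAW (hKA ha), hcon a ha⟩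
          obtain ⟨e, heK, heX⟩ := this
          rw [mco_sum_eq_zero hKA heK heX, mul_zero]
        rw [← Finset.insert_erase (mem_powerset_self X), sum_insert (notMem_erase _ _)] at hsum
        have hrest : ∑ X' ∈ X.powerset.erase X, ∑ A ∈ S, c A * mco A (Kc A) X' = 0 := by
          refine sum_eq_zero fun X' hX' => ?_
          obtain ⟨hne, hsub⟩ := mem_erase.1 hX'
          rw [mem_powerset] at hsub
          exact ih X'.card (hn ▸ card_lt_card (hsub.ssubset_of_ne hne)) X' (hsub.trans hXW) rfl
        rw [hrest, add_zero] at hsum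
        exact hsum
  by_contra hcon
  push Not at hcon
  obtain ⟨A₀, hA₀, hc₀⟩ := hcon
  obtain ⟨A, hA, hmax⟩ := (S.filter (fun A => c A ≠ 0)).exists_max_image Finset.card
    ⟨A₀, mem_filter.2 ⟨hA₀, hc₀⟩⟩
  obtain ⟨hAS, hcA⟩ := mem_filter.1 hA
  have := hg A.card A ((hS A).1 hAS).1 rfl
  rw [Finset.sum_eq_single A] at this
  · rw [mco_self, mul_one] at this
    exact hcA this
  · intro B hB hBA
    by_cases hcB : c B = 0
    · simp [hcB]
    · have hle := hmax B (mem_filter.2 ⟨hB, hcB⟩)
      have : ¬ A ⊆ B := by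
        intro hAB
        exact hBA (eq_of_subset_of_card_le hAB hle).symm
      simp [mco, this]
  · intro h
    exact absurd hAS h

theorem jstar (W : Finset α) (F : Finset α → Prop)
    (hF : ∀ A B, A ⊆ B → B ⊆ W → F A → F B) (Kc : Finset α → Finset α)
    (hK : ∀ A ⊆ W, F A → Kc A ⊆ A ∧ F (Kc A)) :
    ∃ φ : Finset α → Finset α, (∀ A ⊆ W, F A → φ A ⊆ Kc A ∧ F ((W \ A) ∪ φ A)) ∧
      Set.InjOn (fun A => (W \ A) ∪ φ A) {A | A ⊆ W ∧ F A} := by
  classical
  let S : Finset (Finset α) := W.powerset.filter F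
  have hS : ∀ A, A ∈ S ↔ A ⊆ W ∧ F A := fun A => by simp [S]
  let M : Matrix {A // A ∈ S} {A // A ∈ S} ℚ := fun A B => mco A.1 (Kc A.1) (W \ B.1)
  have hdet : M.det ≠ 0 := by
    intro hdet0
    obtain ⟨v, hv0, hv⟩ := Matrix.exists_vecMul_eq_zero_iff.2 hdet0
    apply hv0
    let c : Finset α → ℚ := fun A => if h : A ∈ S then v ⟨A, h⟩ else 0
    have hc : ∀ A ∈ S, c A = 0 := by
      refine coeff_eq_zero W F hF Kc hK S hS c fun B hB => ?_
      have h1 := congrFun hv ⟨B, hB⟩
      simp only [Matrix.vecMul, dotProduct, Pi.zero_apply] at h1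
      rw [← h1, ← Finset.sum_coe_sort S]
      refine sum_congr rfl fun A _ => ?_
      simp [c, M]
    funext A
    have := hc A.1 A.2
    simpa [c] using this
  rw [Matrix.det_apply] at hdet
  obtain ⟨σ, -, hσ⟩ := Finset.exists_ne_zero_of_sum_ne_zero hdet
  have hσ1 : ∀ i, M (σ i) i ≠ 0 := by
    intro i hi
    apply hσ
    have hp : ∏ j, M (σ j) j = 0 := Finset.prod_eq_zero (mem_univ i) hi
    rw [hp, smul_zero]
  -- for every `A ∈ S` put `B = σ⁻¹ A`
  let τ := σ.symm
  have hτ : ∀ A : {A // A ∈ S}, A.1 \ Kc A.1 ⊆ W \ (τ A).1 ∧ W \ (τ A).1 ⊆ A.1 := by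
    intro A
    have h := hσ1 (τ A)
    have h2 : σ (τ A) = A := σ.apply_symm_apply A
    rw [h2] at h
    by_contra hcon
    exact h (by simp only [M, mco, if_neg hcon])
  let φ : Finset α → Finset α := fun A => if h : A ∈ S then A ∩ (τ ⟨A, h⟩).1 else ∅
  have hφ : ∀ A (h : A ∈ S), (W \ A) ∪ φ A = (τ ⟨A, h⟩).1 := by
    intro A h
    obtain ⟨hAW, hFA⟩ := (hS A).1 h
    obtain ⟨h1, h2⟩ := hτ ⟨A, h⟩
    have hτW := ((hS _).1 (τ ⟨A, h⟩).2).1
    simp only [φ, dif_pos h]
    ext a
    simp only [mem_union, mem_sdiff, mem_inter]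
    constructor
    · rintro (⟨haW, haA⟩ | ⟨_, ha⟩)
      · by_contra hna
        exact haA (h2 (mem_sdiff.2 ⟨haW, hna⟩))
      · exact ha
    · intro ha
      by_cases haA : a ∈ A
      · exact Or.inr ⟨haA, ha⟩
      · exact Or.inl ⟨hτW ha, haA⟩
  refine ⟨φ, ?_, ?_⟩
  · intro A hAW hFA
    have h : A ∈ S := (hS A).2 ⟨hAW, hFA⟩
    refine ⟨?_, ?_⟩
    · obtain ⟨h1, h2⟩ := hτ ⟨A, h⟩
      simp only [φ, dif_pos h]
      intro a ha
      obtain ⟨haA, haτ⟩ := mem_inter.1 ha
      by_contra hna
      exact (mem_sdiff.1 (h1 (mem_sdiff.2 ⟨haA, hna⟩))).2 haτ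
    · rw [hφ A h]
      exact ((hS _).1 (τ ⟨A, h⟩).2).2
  · intro A hA B hB hAB
    have hA' : A ∈ S := (hS A).2 hA
    have hB' : B ∈ S := (hS B).2 hB
    simp only at hAB
    rw [hφ A hA', hφ B hB'] at hAB
    have := τ.injective (Subtype.ext hAB)
    exact congrArg Subtype.val this

end Vale.P331.H218
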