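import Vale.Agent.P331.H489.Rows
import Vale.Agent.P331.H218.JStar

/-!
# Row C: the real circuits

The swap of labels `v → g` along `jstar`, and the count of the lucky elements.
-/

set_option autoImplicit false
set_option linter.unusedSectionVars false
set_option linter.unusedVariables false

namespace Vale.Agent.P331.H218

open Finset Vale.Agent.P331.H489
open scoped Classical

section

variable {E L : Type*} [Fintype E] [DecidableEq E] [Fintype L] [DecidableEq L]

/-- a coordinate on which the functional does not depend -/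
theorem EX_indep (z : E) (l₁ : L) (w : E → L → ℝ) (hw : ∑ l, w z l = 1) (F : (E → L) → ℝ)
    (hF : ∀ ω l, F (Function.update ω z l) = F ω) :
    EX w F = EX (Function.update w z (Pi.single l₁ 1)) F := by
  rw [EX_split z l₁ w F]
  simp only [hF]
  rw [← sum_mul, hw, one_mul]

theorem EX_cond' (z : E) (l₀ : L) (w : E → L → ℝ) (hw : ∑ l, w z l = 1) (F : (E → L) → ℝ)
    (hF : ∀ ω l, F (Function.update ω z l) = F ω) :
    EX w (fun ω => if ω z = l₀ then F ω else 0) = w z l₀ * EX w F := by
  rw [EX_cond z l₀ l₀ w F, EX_indep z l₀ w hw F hF]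
  simp only [hF]

theorem EX_zero (w : E → L → ℝ) : EX w (fun _ => 0) = 0 := by simp [EX]

end

section

variable {E : Type} [Fintype E] (M : Matroid E) (lt : E → E → Prop) [IsStrictTotalOrder E lt]

theorem cov_congr {z : E} {P P' : E → Prop} (h : ∀ e, lt z e → (P e ↔ P' e)) :
    cov M lt z P ↔ cov M lt z P' := by
  unfold cov
  have : {e | lt z e ∧ P e} = {e | lt z e ∧ P' e} := by
    ext e
    exact and_congr_right fun he => h e he
  rw [this]

/-- the elements of `T` which are not spanned by the heavier elements of `T` are independent -/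
theorem greedy_indep (hM : M.E = Set.univ) (T : E → Prop) :
    M.Indep {z | T z ∧ ¬ cov M lt z T} := by
  rw [Matroid.indep_iff_forall_subset_not_isCircuit (by rw [hM]; exact Set.subset_univ _)]
  intro C hC hCc
  have hwf : WellFounded lt := Finite.wellFounded_of_trans_of_irrefl lt
  obtain ⟨z, hz, hmin⟩ := hwf.has_min C hCc.nonempty
  have hzc : z ∈ M.closure (C \ {z}) := hCc.mem_closure_sdiff_singleton_of_mem hz
  apply (hC hz).2
  unfold cov
  refine M.closure_subset_closure ?_ hzc
  rintro e ⟨heC, hez⟩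
  refine ⟨?_, (hC heC).1⟩
  rcases trichotomous_of lt z e with h | h | h
  · exact h
  · exact absurd h.symm hez
  · exact absurd h (hmin e heC)

theorem greedy_card (hM : M.E = Set.univ) (r : ℕ)
    (hr : ∀ I : Finset E, M.Indep (I : Set E) → I.card ≤ r) (T : E → Prop) :
    (univ.filter fun z => T z ∧ ¬ cov M lt z T).card ≤ r := by
  apply hr
  have h := greedy_indep M lt hM T
  have h2 : ((univ.filter fun z => T z ∧ ¬ cov M lt z T : Finset E) : Set E) =
      {z | T z ∧ ¬ cov M lt z T} := by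
    ext z
    simp
  rw [h2]
  exact h

/-- the sample is not covering -/
noncomputable def Nz (b z : E) (κ : E → C5) (s : E → Bool) : ℝ :=
  if cov M lt z (fun e => False ∨ ((e ≠ b ∧ κ e = .r) ∧ s e = true)) then 0 else 1

noncomputable def Hz (b z : E) (κ : E → C5) : ℝ :=
  EX (fun _ _ => 1 / 2) fun s : E → Bool => Nz M lt b z κ s

theorem Hz_eq (b z : E) (κ : E → C5) :
    Hz M lt b z κ = miss M lt z (fun e => e ≠ b ∧ κ e = .r) (fun _ => False) := rfl

theorem Nz_update_z (b z : E) (κ : E → C5) (s : E → Bool) (l : C5) :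
    Nz M lt b z (Function.update κ z l) s = Nz M lt b z κ s := by
  unfold Nz
  refine if_congr (cov_congr M lt fun e he => ?_) rfl rfl
  have : e ≠ z := by
    rintro rfl
    exact irrefl_of lt e he
  rw [Function.update_of_ne this]

theorem Nz_update_s (b z : E) (κ : E → C5) (s : E → Bool) (l : Bool) :
    Nz M lt b z κ (Function.update s z l) = Nz M lt b z κ s := by
  unfold Nz
  refine if_congr (cov_congr M lt fun e he => ?_) rfl rfl
  have : e ≠ z := by
    rintro rfl
    exact irrefl_of lt e he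
  rw [Function.update_of_ne this]

theorem Nz_update_b (b z : E) (κ : E → C5) (s : E → Bool) (l : C5) :
    Nz M lt b z (Function.update κ b l) s = Nz M lt b z κ s := by
  unfold Nz
  refine if_congr (cov_congr M lt fun e he => ?_) rfl rfl
  by_cases h : e = b
  · simp [h]
  · rw [Function.update_of_ne h]

theorem Nz_nonneg (b z : E) (κ : E → C5) (s : E → Bool) : 0 ≤ Nz M lt b z κ s := by
  unfold Nz
  split_ifs <;> norm_num

theorem Hz_nonneg (b z : E) (κ : E → C5) : 0 ≤ Hz M lt b z κ :=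
  EX_nonneg (fun _ _ => by norm_num) fun s => Nz_nonneg M lt b z κ s

theorem w5_nonneg {p lam : ℝ} (hp : 0 ≤ p) (hlam : 1 ≤ lam) (hs : p + lam * p ≤ 1 / 2) (l : C5) :
    0 ≤ w5 p lam 0 l := by
  have : 0 ≤ lam * p := mul_nonneg (by linarith) hp
  cases l <;> simp only [w5] <;> linarith

theorem w5_sum (p lam : ℝ) : ∑ l, w5 p lam 0 l = 1 := by
  rw [sum_C5]
  simp only [w5]
  ring

theorem half_sum : ∑ _l : Bool, (1 / 2 : ℝ) = 1 := by simp

/-- the pointwise count -/
theorem count_point (hM : M.E = Set.univ) (b : E) (r : ℕ)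
    (hr : ∀ I : Finset E, M.Indep (I : Set E) → I.card ≤ r) (κ : E → C5) (s : E → Bool) :
    ∑ z ∈ univ.erase b, (if κ z = .r then if s z = true then Nz M lt b z κ s else 0 else 0)
      ≤ (r : ℝ) := by
  let T : E → Prop := fun e => False ∨ ((e ≠ b ∧ κ e = .r) ∧ s e = true)
  have h1 : ∀ z ∈ univ.erase b,
      (if κ z = .r then if s z = true then Nz M lt b z κ s else 0 else 0) =
      if T z ∧ ¬ cov M lt z T then (1 : ℝ) else 0 := by
    intro z hz
    have hzb := ne_of_mem_erase hz
    by_cases h2 : κ z = .r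
    · by_cases h3 : s z = true
      · rw [if_pos h2, if_pos h3]
        have hT : T z := Or.inr ⟨⟨hzb, h2⟩, h3⟩
        by_cases h4 : cov M lt z T
        · have h5 : Nz M lt b z κ s = 0 := if_pos h4
          have h6 : ¬ (T z ∧ ¬ cov M lt z T) := fun h => h.2 h4
          rw [h5, if_neg h6]
        · have h5 : Nz M lt b z κ s = 1 := if_neg h4
          have h6 : T z ∧ ¬ cov M lt z T := And.intro hT h4
          rw [h5, if_pos h6]
      · rw [if_pos h2, if_neg h3, if_neg]
        rintro ⟨h | h, -⟩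
        · exact h
        · exact h3 h.2
    · rw [if_neg h2, if_neg]
      rintro ⟨h | h, -⟩
      · exact h
      · exact h2 h.1.2
  rw [sum_congr rfl h1]
  calc ∑ z ∈ univ.erase b, (if T z ∧ ¬ cov M lt z T then (1 : ℝ) else 0)
      ≤ ∑ z ∈ univ, (if T z ∧ ¬ cov M lt z T then (1 : ℝ) else 0) :=
        sum_le_sum_of_subset_of_nonneg (erase_subset _ _) fun _ _ _ => by
          split_ifs <;> norm_num
    _ = ((univ.filter fun z => T z ∧ ¬ cov M lt z T).card : ℝ) := by
        rw [← sum_filter]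
        simp
    _ ≤ r := by
        have h := greedy_card M lt hM r hr T
        refine Nat.cast_le.2 (le_trans (le_of_eq ?_) h)
        congr

/-- the sum of the probabilities of the lucky elements -/
theorem count_sum (hM : M.E = Set.univ) {p lam : ℝ} (hp : 0 ≤ p) (hlam : 1 ≤ lam)
    (hs : p + lam * p ≤ 1 / 2) (b : E) (r : ℕ)
    (hr : ∀ I : Finset E, M.Indep (I : Set E) → I.card ≤ r) :
    ∑ z ∈ univ.erase b, EX (fun _ => w5 p lam 0) (Hz M lt b z) ≤ 4 * r := by
  have h1 : ∀ z ∈ univ.erase b, EX (fun _ => w5 p lam 0) (Hz M lt b z) =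
      4 * EX (fun _ => w5 p lam 0) (fun κ => EX (fun _ _ => 1 / 2) fun s : E → Bool =>
        if κ z = .r then if s z = true then Nz M lt b z κ s else 0 else 0) := by
    intro z _
    have h2 : ∀ κ : E → C5, EX (fun _ _ => (1 / 2 : ℝ)) (fun s : E → Bool =>
        if κ z = .r then if s z = true then Nz M lt b z κ s else 0 else 0) =
        if κ z = .r then (1 / 2) * Hz M lt b z κ else 0 := by
      intro κ
      by_cases h : κ z = .r
      · simp only [if_pos h]
        exact EX_cond' z true (fun _ _ => (1 / 2 : ℝ)) half_sum (fun s => Nz M lt b z κ s)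
          (fun s l => Nz_update_s M lt b z κ s l)
      · simp only [if_neg h]
        exact EX_zero _
    simp only [h2]
    rw [EX_cond' z .r (fun _ => w5 p lam 0) (w5_sum p lam) (fun κ => 1 / 2 * Hz M lt b z κ)
      (fun κ l => by
        simp only [Hz, Nz_update_z]), EX_mul]
    simp only [w5]
    ring
  rw [sum_congr rfl h1, ← mul_sum]
  refine mul_le_mul_of_nonneg_left ?_ (by norm_num)
  rw [← EX_sum]
  have h3 : EX (fun _ : E => w5 p lam 0) (fun κ => ∑ z ∈ univ.erase b,
      EX (fun _ _ => 1 / 2) fun s : E → Bool =>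
        if κ z = .r then if s z = true then Nz M lt b z κ s else 0 else 0) ≤
      EX (fun _ : E => w5 p lam 0) (fun _ => (r : ℝ)) := by
    refine EX_mono (fun _ l => w5_nonneg hp hlam hs l) fun κ => ?_
    rw [← EX_sum]
    refine (EX_mono (fun _ _ => by norm_num) (G := fun _ => (r : ℝ))
      fun s => count_point M lt hM b r hr κ s).trans (le_of_eq ?_)
    exact EX_one _ (fun _ => half_sum) _
  rw [EX_one _ (fun _ => w5_sum p lam)] at h3
  exact h3

/-- the good event after the swap -/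
def Gz (b z : E) (κ : E → C5) : Prop :=
  κ b = .v ∧ κ z = .v ∧ 1 / 2 < miss M lt z (fun e => κ e = .r) (fun _ => False)

theorem G_le {p lam : ℝ} (hp : 0 ≤ p) (hlam : 1 ≤ lam)
    (hs : p + lam * p ≤ 1 / 2) (b z : E) (hzb : z ≠ b) :
    EX (fun _ => w5 p lam 0) (fun κ : E → C5 => if Gz M lt b z κ then 1 else 0) ≤
      p ^ 2 * (2 * EX (fun _ => w5 p lam 0) (Hz M lt b z)) := by
  have h1 : EX (fun _ => w5 p lam 0) (fun κ : E → C5 => if κ z = .v then
      (if κ b = .v then 2 * Hz M lt b z κ else 0) else 0) =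
      p ^ 2 * (2 * EX (fun _ => w5 p lam 0) (Hz M lt b z)) := by
    rw [EX_cond' z .v (fun _ => w5 p lam 0) (w5_sum p lam)
      (fun κ => if κ b = .v then 2 * Hz M lt b z κ else 0) (fun κ l => by
        simp only [Hz, Nz_update_z]
        rw [Function.update_of_ne hzb.symm]),
      EX_cond' b .v (fun _ => w5 p lam 0) (w5_sum p lam)
      (fun κ => 2 * Hz M lt b z κ) (fun κ l => by
        simp only [Hz, Nz_update_b]), EX_mul]
    simp only [w5]
    ring
  rw [← h1]
  refine EX_mono (fun _ l => w5_nonneg hp hlam hs l) fun κ => ?_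
  by_cases hG : Gz M lt b z κ
  · rw [if_pos hG, if_pos hG.2.1, if_pos hG.1, Hz_eq]
    have h2 := hG.2.2
    have h3 : miss M lt z (fun e => κ e = .r) (fun _ => False) ≤
        miss M lt z (fun e => e ≠ b ∧ κ e = .r) (fun _ => False) :=
      miss_anti M lt (fun e he => he.2) (fun _ h => h)
    linarith
  · rw [if_neg hG]
    split_ifs
    · have := Hz_nonneg M lt b z κ
      linarith
    · exact le_rfl
    · exact le_rfl

/-- labels of the swapped configuration -/
noncomputable def WW (b z : E) (κ : E → C5) : Finset E :=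
  univ.filter fun e => e ≠ b ∧ e ≠ z ∧ (κ e = .v ∨ κ e = .g)

noncomputable def AA (b z : E) (κ : E → C5) : Finset E :=
  univ.filter fun e => e ≠ b ∧ e ≠ z ∧ κ e = .v

/-- the choice property -/
def PX (b z : E) (Λ : ℕ) (W A X : Finset E) : Prop :=
  b ∈ X ∧ X.erase b ⊆ A ∧ (cov M lt z fun e => e ∈ X) ∧
    ∀ U ⊆ X, (cov M lt z fun e => e ∈ W \ A ∨ e ∈ U) → Λ ≤ U.card

/-- the swap -/
theorem swap_le {p lam : ℝ} (hp : 0 ≤ p) (hlam : 1 ≤ lam)
    (hs : p + lam * p ≤ 1 / 2) (b z : E) (hzb : z ≠ b) (Λ : ℕ) :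
    EX (fun _ => w5 p lam 0) (fun κ : E → C5 => if Ev2 M lt b z Λ κ then 1 else 0) ≤
      (1 / lam) ^ (Λ - 1) *
      EX (fun _ => w5 p lam 0) (fun κ : E → C5 => if Gz M lt b z κ then 1 else 0) := by
  have hlam0 : 0 < lam := by linarith
  let F : Finset E → Prop := fun A => cov M lt z fun e => e ∈ A ∨ e = b
  let Kc : Finset E → Finset E → Finset E := fun W A =>
    if h : ∃ X, PX M lt b z Λ W A X then (Classical.choose h).erase b else A
  have hj : ∀ W : Finset E, ∃ φ : Finset E → Finset E,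
      (∀ A ⊆ W, F A → φ A ⊆ Kc W A ∧ F ((W \ A) ∪ φ A)) ∧
      Set.InjOn (fun A => (W \ A) ∪ φ A) {A | A ⊆ W ∧ F A} := by
    intro W
    refine Vale.P331.H218.jstar W F (fun A B hAB _ hA => ?_) (Kc W) (fun A hA hFA => ?_)
    · exact cov_mono M lt (fun e he => he.imp (fun h => hAB h) id) hA
    · by_cases h : ∃ X, PX M lt b z Λ W A X
      · have hKc : Kc W A = (Classical.choose h).erase b := dif_pos h
        have hs := Classical.choose_spec h
        rw [hKc]
        refine ⟨hs.2.1, cov_mono M lt (fun e he => ?_) hs.2.2.1⟩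
        by_cases heb : e = b
        · exact Or.inr heb
        · exact Or.inl (mem_erase.2 ⟨heb, he⟩)
      · have hKc : Kc W A = A := dif_neg h
        rw [hKc]
        exact ⟨Subset.refl _, hFA⟩
  choose φ hφ hinj using hj
  let f : (E → C5) → Finset E := fun κ => φ (WW b z κ) (AA b z κ)
  let Ψ : (E → C5) → (E → C5) := fun κ e => if e ∈ f κ then .g else κ e
  -- facts on the good configurations
  have hAW : ∀ κ : E → C5, AA b z κ ⊆ WW b z κ := by
    intro κ e he
    simp only [AA, WW, mem_filter, mem_univ, true_and] at he ⊢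
    exact ⟨he.1, he.2.1, Or.inl he.2.2⟩
  have hfact : ∀ κ : E → C5, Ev2 M lt b z Λ κ → F (AA b z κ) ∧ f κ ⊆ AA b z κ ∧
      Λ - 1 ≤ (f κ).card := by
    rintro κ ⟨hb, hz, -, X, hbX, hX, hcX, hU⟩
    have hXA : X.erase b ⊆ AA b z κ := by
      intro e he
      obtain ⟨heb, heX⟩ := mem_erase.1 he
      simp only [AA, mem_filter, mem_univ, true_and]
      refine ⟨heb, ?_, (hX e heX).1⟩
      rintro rfl
      exact irrefl_of lt e (hX e heX).2
    have hFA : F (AA b z κ) := by
      refine cov_mono M lt (fun e he => ?_) hcX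
      by_cases heb : e = b
      · exact Or.inr heb
      · exact Or.inl (hXA (mem_erase.2 ⟨heb, he⟩))
    have hP : ∃ X, PX M lt b z Λ (WW b z κ) (AA b z κ) X := by
      refine ⟨X, hbX, hXA, hcX, fun U hUX hc => hU U hUX ?_⟩
      refine cov_mono M lt (fun e he => ?_) hc
      refine he.imp (fun h => ?_) id
      simp only [WW, AA, mem_sdiff, mem_filter, mem_univ, true_and, not_and] at h
      rcases h.1.2.2 with h1 | h1
      · exact absurd h1 (h.2 h.1.1 h.1.2.1)
      · exact h1
    have hKc : Kc (WW b z κ) (AA b z κ) = (Classical.choose hP).erase b := dif_pos hP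
    have hs := Classical.choose_spec hP
    obtain ⟨h1, h2⟩ := hφ (WW b z κ) (AA b z κ) (hAW κ) hFA
    rw [hKc] at h1
    refine ⟨hFA, h1.trans hs.2.1, ?_⟩
    have h3 : Λ ≤ (insert b (f κ)).card := by
      apply hs.2.2.2
      · intro e he
        rcases mem_insert.1 he with h | h
        · rw [h]; exact hs.1
        · exact mem_of_mem_erase (h1 h)
      · refine cov_mono M lt (fun e he => ?_) h2
        rcases he with he | he
        · rcases mem_union.1 he with h | h
          · exact Or.inl h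
          · exact Or.inr (mem_insert_of_mem h)
        · exact Or.inr (by rw [he]; exact mem_insert_self _ _)
    have h4 := card_insert_le b (f κ)
    omega
  have hΨv : ∀ κ : E → C5, Ev2 M lt b z Λ κ → ∀ e ∈ f κ, e ≠ b ∧ e ≠ z ∧ κ e = .v := by
    intro κ hκ e he
    have := (hfact κ hκ).2.1 he
    simpa only [AA, mem_filter, mem_univ, true_and] using this
  have hWW : ∀ κ : E → C5, Ev2 M lt b z Λ κ → WW b z (Ψ κ) = WW b z κ := by
    intro κ hκ
    ext e
    simp only [WW, mem_filter, mem_univ, true_and, Ψ]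
    by_cases he : e ∈ f κ
    · have h := hΨv κ hκ e he
      simp [he, h.2.2]
    · simp [he]
  have hGG : ∀ κ : E → C5, Ev2 M lt b z Λ κ →
      WW b z κ \ AA b z (Ψ κ) = (WW b z κ \ AA b z κ) ∪ f κ := by
    intro κ hκ
    ext e
    simp only [WW, AA, mem_sdiff, mem_union, mem_filter, mem_univ, true_and, Ψ]
    by_cases he : e ∈ f κ
    · have h := hΨv κ hκ e he
      simp [he, h.2.2, h.1, h.2.1]
    · simp [he]
  have hinjΨ : Set.InjOn Ψ {κ | Ev2 M lt b z Λ κ} := by
    intro κ₁ h1 κ₂ h2 h12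
    have hW : WW b z κ₁ = WW b z κ₂ := by
      rw [← hWW κ₁ h1, ← hWW κ₂ h2, h12]
    have hG : (WW b z κ₁ \ AA b z κ₁) ∪ f κ₁ = (WW b z κ₁ \ AA b z κ₂) ∪ f κ₂ := by
      rw [← hGG κ₁ h1, h12, hW, ← hGG κ₂ h2]
    have hA : AA b z κ₁ = AA b z κ₂ := by
      apply hinj (WW b z κ₁) ⟨hAW κ₁, (hfact κ₁ h1).1⟩
        ⟨by rw [hW]; exact hAW κ₂, (hfact κ₂ h2).1⟩
      simp only
      have e1 : f κ₁ = φ (WW b z κ₁) (AA b z κ₁) := rfl
      have e2 : f κ₂ = φ (WW b z κ₁) (AA b z κ₂) := by rw [hW]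
      rw [← e1, ← e2]
      exact hG
    have hf : f κ₁ = f κ₂ := by
      show φ (WW b z κ₁) (AA b z κ₁) = φ (WW b z κ₂) (AA b z κ₂)
      rw [hW, hA]
    funext e
    have he12 := congrFun h12 e
    simp only [Ψ] at he12
    by_cases he : e ∈ f κ₁
    · rw [(hΨv κ₁ h1 e he).2.2, (hΨv κ₂ h2 e (hf ▸ he)).2.2]
    · rw [if_neg he, if_neg (hf ▸ he)] at he12
      exact he12
  have hGz : ∀ κ : E → C5, Ev2 M lt b z Λ κ → Gz M lt b z (Ψ κ) := by
    intro κ hκ
    have hr : ∀ e, Ψ κ e = .r ↔ κ e = .r := by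
      intro e
      simp only [Ψ]
      by_cases he : e ∈ f κ
      · simp [he, (hΨv κ hκ e he).2.2]
      · simp [he]
    refine ⟨?_, ?_, ?_⟩
    · have : b ∉ f κ := fun h => (hΨv κ hκ b h).1 rfl
      simp only [Ψ, if_neg this]
      exact hκ.1
    · have : z ∉ f κ := fun h => (hΨv κ hκ z h).2.1 rfl
      simp only [Ψ, if_neg this]
      exact hκ.2.1
    · simp only [hr]
      exact hκ.2.2.1
  have hwt : ∀ κ : E → C5, Ev2 M lt b z Λ κ →
      (∏ e, w5 p lam 0 (κ e)) ≤ (1 / lam) ^ (Λ - 1) * ∏ e, w5 p lam 0 (Ψ κ e) := by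
    intro κ hκ
    have h1 : ∏ e, w5 p lam 0 (Ψ κ e) = lam ^ (f κ).card * ∏ e, w5 p lam 0 (κ e) := by
      have h2 : ∀ e, w5 p lam 0 (Ψ κ e) = (if e ∈ f κ then lam else 1) * w5 p lam 0 (κ e) := by
        intro e
        simp only [Ψ]
        by_cases he : e ∈ f κ
        · rw [if_pos he, if_pos he, (hΨv κ hκ e he).2.2]
          rfl
        · rw [if_neg he, if_neg he, one_mul]
      rw [prod_congr rfl fun e _ => h2 e, prod_mul_distrib]
      congr 1
      rw [prod_ite, prod_const_one, mul_one, prod_const]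
      congr 2
      ext e
      simp
    rw [h1, ← mul_assoc]
    refine le_mul_of_one_le_left (prod_nonneg fun e _ => w5_nonneg hp hlam hs _) ?_
    calc (1 : ℝ) = (1 / lam) ^ (Λ - 1) * lam ^ (Λ - 1) := by
          rw [← mul_pow, one_div_mul_cancel hlam0.ne', one_pow]
      _ ≤ (1 / lam) ^ (Λ - 1) * lam ^ (f κ).card :=
          mul_le_mul_of_nonneg_left (pow_le_pow_right₀ hlam (hfact κ hκ).2.2)
            (pow_nonneg (by positivity) _)
  -- the sums
  have hL : EX (fun _ => w5 p lam 0) (fun κ : E → C5 => if Ev2 M lt b z Λ κ then 1 else 0) =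
      ∑ κ ∈ univ.filter (fun κ : E → C5 => Ev2 M lt b z Λ κ), ∏ e, w5 p lam 0 (κ e) := by
    unfold EX
    rw [sum_filter]
    refine sum_congr rfl fun κ _ => ?_
    by_cases h : Ev2 M lt b z Λ κ
    · simp only [if_pos h, mul_one]
    · simp only [if_neg h, mul_zero]
  have hR : EX (fun _ => w5 p lam 0) (fun κ : E → C5 => if Gz M lt b z κ then 1 else 0) =
      ∑ κ ∈ univ.filter (fun κ : E → C5 => Gz M lt b z κ), ∏ e, w5 p lam 0 (κ e) := by
    unfold EX
    rw [sum_filter]
    refine sum_congr rfl fun κ _ => ?_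
    by_cases h : Gz M lt b z κ
    · simp only [if_pos h, mul_one]
    · simp only [if_neg h, mul_zero]
  rw [hL, hR]
  calc ∑ κ ∈ univ.filter (fun κ : E → C5 => Ev2 M lt b z Λ κ), ∏ e, w5 p lam 0 (κ e)
      ≤ ∑ κ ∈ univ.filter (fun κ : E → C5 => Ev2 M lt b z Λ κ),
          (1 / lam) ^ (Λ - 1) * ∏ e, w5 p lam 0 (Ψ κ e) :=
        sum_le_sum fun κ hκ => hwt κ (mem_filter.1 hκ).2
    _ = (1 / lam) ^ (Λ - 1) * ∑ κ ∈ (univ.filter (fun κ : E → C5 => Ev2 M lt b z Λ κ)).image Ψ,
          ∏ e, w5 p lam 0 (κ e) := by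
        rw [← mul_sum, sum_image]
        intro κ₁ h1 κ₂ h2 h12
        exact hinjΨ (by simpa using h1) (by simpa using h2) h12
    _ ≤ _ := by
        refine mul_le_mul_of_nonneg_left ?_ (pow_nonneg (by positivity) _)
        refine sum_le_sum_of_subset_of_nonneg ?_ fun κ _ _ =>
          prod_nonneg fun e _ => w5_nonneg hp hlam hs _
        intro κ' hκ'
        obtain ⟨κ, hκ, rfl⟩ := mem_image.1 hκ'
        exact mem_filter.2 ⟨mem_univ _, hGz κ (mem_filter.1 hκ).2⟩

end

/-- **Row C**. -/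
theorem ev2_sum {E : Type} [Fintype E] (M : Matroid E) (hM : M.E = Set.univ)
    (lt : E → E → Prop) [IsStrictTotalOrder E lt] {p lam : ℝ} (hp : 0 ≤ p) (hlam : 1 ≤ lam)
    (hs : p + lam * p ≤ 1 / 2) (b : E) (Λ r : ℕ)
    (hr : ∀ I : Finset E, M.Indep (I : Set E) → I.card ≤ r) :
    ∑ z ∈ univ.erase b,
      EX (fun _ => w5 p lam 0) (fun κ : E → C5 => if Ev2 M lt b z Λ κ then 1 else 0) ≤
      p ^ 2 * (8 * r) * (1 / lam) ^ (Λ - 1) := by
  have hlam0 : 0 < lam := by linarith
  have h0 : 0 ≤ (1 / lam) ^ (Λ - 1) := pow_nonneg (by positivity) _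
  calc _ ≤ ∑ z ∈ univ.erase b, (1 / lam) ^ (Λ - 1) *
        (p ^ 2 * (2 * EX (fun _ => w5 p lam 0) (Hz M lt b z))) := by
        refine sum_le_sum fun z hz => ?_
        have hzb := ne_of_mem_erase hz
        exact (swap_le M lt hp hlam hs b z hzb Λ).trans
          (mul_le_mul_of_nonneg_left (G_le M lt hp hlam hs b z hzb) h0)
    _ = (1 / lam) ^ (Λ - 1) * (p ^ 2 * (2 *
          ∑ z ∈ univ.erase b, EX (fun _ => w5 p lam 0) (Hz M lt b z))) := by
        simp only [mul_sum]
    _ ≤ (1 / lam) ^ (Λ - 1) * (p ^ 2 * (2 * (4 * r))) := by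
        refine mul_le_mul_of_nonneg_left (mul_le_mul_of_nonneg_left
          (mul_le_mul_of_nonneg_left (count_sum M lt hM hp hlam hs b r hr) (by norm_num))
          (by positivity)) h0
    _ = p ^ 2 * (8 * r) * (1 / lam) ^ (Λ - 1) := by ring

end Vale.Agent.P331.H218
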